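import Mathlib

/-! Definitions for P063 (threshold width of hypergraph properties). -/

namespace Vale.Agent.P063

/-- `E_{n,r}`: the `r`-element subsets of the vertex set `Fin n`. A point of
`Edge n r → Bool` is a simple `r`-uniform hypergraph (`true` = the edge is present). -/
abbrev Edge (n r : ℕ) : Type := {e : Finset (Fin n) // e.card = r}

/-- The image of an edge under a permutation of the vertices. -/
def permEdge {n r : ℕ} (σ : Equiv.Perm (Fin n)) (e : Edge n r) : Edge n r :=
  ⟨e.1.map σ.toEmbedding, (Finset.card_map _).trans e.2⟩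

/-- A hypergraph property: a family invariant under all permutations of the vertices. -/
def IsProperty {n r : ℕ} (P : Set (Edge n r → Bool)) : Prop :=
  ∀ (σ : Equiv.Perm (Fin n)) (x : Edge n r → Bool), x ∈ P → (fun e => x (permEdge σ e)) ∈ P

/-- Adding edges preserves membership. -/
def IsIncreasing {n r : ℕ} (P : Set (Edge n r → Bool)) : Prop :=
  ∀ x y : Edge n r → Bool, (∀ e, x e = true → y e = true) → x ∈ P → y ∈ P

/-- `μ_p(P)`: probability that the random hypergraph with independent edges of
probability `p` lies in `P`. -/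
noncomputable def mu {n r : ℕ} (P : Set (Edge n r → Bool)) (p : ℝ) : ℝ :=
  ∑ x : Edge n r → Bool, P.indicator (fun y => ∏ e, if y e = true then p else 1 - p) x

/-- `p_a(P) = inf {p ∈ [0,1] : μ_p(P) ≥ a}`. -/
noncomputable def crit {n r : ℕ} (P : Set (Edge n r → Bool)) (a : ℝ) : ℝ :=
  sInf {p : ℝ | p ∈ Set.Icc (0 : ℝ) 1 ∧ a ≤ mu P p}

/-- The threshold width `w_ε(P) = p_{1-ε}(P) - p_ε(P)`. -/
noncomputable def width {n r : ℕ} (P : Set (Edge n r → Bool)) (ε : ℝ) : ℝ :=
  crit P (1 - ε) - crit P ε

end Vale.Agent.P063
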