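import Mathlib

/-! Biased Fourier analysis on the discrete cube. -/

set_option linter.unusedSectionVars false

namespace Vale.Agent.P063

open Finset

variable {ι : Type*} [Fintype ι] [DecidableEq ι]

/-- weight of a single bit -/
def w1 (p : ℝ) (b : Bool) : ℝ := if b then p else 1 - p

/-- product weight -/
noncomputable def wt (p : ℝ) (x : ι → Bool) : ℝ := ∏ i, w1 p (x i)

/-- expectation -/
noncomputable def Ex (p : ℝ) (g : (ι → Bool) → ℝ) : ℝ := ∑ x, wt p x * g x

noncomputable def sig (p : ℝ) : ℝ := √(p * (1 - p))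

noncomputable def phi (p : ℝ) (b : Bool) : ℝ := (if b then 1 - p else -p) / sig p

noncomputable def chi (p : ℝ) (S : Finset ι) (x : ι → Bool) : ℝ := ∏ i ∈ S, phi p (x i)

noncomputable def coef (p : ℝ) (g : (ι → Bool) → ℝ) (S : Finset ι) : ℝ :=
  Ex p (fun x => g x * chi p S x)

section basic
variable {p : ℝ}

lemma w1_pos (h0 : 0 < p) (h1 : p < 1) (b : Bool) : 0 < w1 p b := by
  cases b <;> simp [w1] <;> linarith

lemma wt_pos (h0 : 0 < p) (h1 : p < 1) (x : ι → Bool) : 0 < wt p x :=
  Finset.prod_pos fun _ _ => w1_pos h0 h1 _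

lemma sig_pos (h0 : 0 < p) (h1 : p < 1) : 0 < sig p :=
  Real.sqrt_pos.2 (mul_pos h0 (by linarith))

lemma sig_sq (h0 : 0 < p) (h1 : p < 1) : sig p ^ 2 = p * (1 - p) :=
  Real.sq_sqrt (mul_pos h0 (by linarith)).le

lemma sig_le (h0 : 0 < p) (h1 : p < 1) : sig p ≤ 1 / 2 := by
  have h := sig_sq h0 h1
  have h2 := sig_pos h0 h1
  nlinarith [sq_nonneg (p - 1 / 2)]

lemma Ex_prod (a : ι → Bool → ℝ) :
    Ex p (fun x => ∏ i, a i (x i)) = ∏ i, (p * a i true + (1 - p) * a i false) := by
  have h : ∀ i, p * a i true + (1 - p) * a i false = ∑ b : Bool, w1 p b * a i b := by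
    intro i; simp [w1]
  simp only [h]
  rw [Finset.prod_univ_sum]
  simp only [Fintype.piFinset_univ, Ex, wt, Finset.prod_mul_distrib]

lemma Ex_const (c : ℝ) : Ex p (fun _ : ι → Bool => c) = c := by
  have h := Ex_prod (p := p) (ι := ι) (fun _ _ => 1)
  simp only [Finset.prod_const_one, mul_one, add_sub_cancel] at h
  unfold Ex at h ⊢
  rw [← Finset.sum_mul]
  simp only [mul_one] at h
  rw [h, one_mul]

lemma Ex_add (f g : (ι → Bool) → ℝ) : Ex p (fun x => f x + g x) = Ex p f + Ex p g := by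
  simp only [Ex, mul_add, Finset.sum_add_distrib]

lemma Ex_sub (f g : (ι → Bool) → ℝ) : Ex p (fun x => f x - g x) = Ex p f - Ex p g := by
  simp only [Ex, mul_sub, Finset.sum_sub_distrib]

lemma Ex_mul_left (c : ℝ) (f : (ι → Bool) → ℝ) : Ex p (fun x => c * f x) = c * Ex p f := by
  simp only [Ex, Finset.mul_sum]
  exact Finset.sum_congr rfl fun x _ => by ring

lemma Ex_mul_right (c : ℝ) (f : (ι → Bool) → ℝ) : Ex p (fun x => f x * c) = Ex p f * c := by
  simp only [Ex, Finset.sum_mul]
  exact Finset.sum_congr rfl fun x _ => by ring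

lemma Ex_sum {α : Type*} (s : Finset α) (f : α → (ι → Bool) → ℝ) :
    Ex p (fun x => ∑ a ∈ s, f a x) = ∑ a ∈ s, Ex p (f a) := by
  simp only [Ex, Finset.mul_sum]
  exact Finset.sum_comm

lemma Ex_comm (G : (ι → Bool) → (ι → Bool) → ℝ) :
    Ex p (fun x => Ex p (fun y => G x y)) = Ex p (fun y => Ex p (fun x => G x y)) := by
  simp only [Ex, Finset.mul_sum]
  rw [Finset.sum_comm]
  exact Finset.sum_congr rfl fun x _ => Finset.sum_congr rfl fun y _ => by ring

lemma Ex_mono (h0 : 0 < p) (h1 : p < 1) {f g : (ι → Bool) → ℝ} (h : ∀ x, f x ≤ g x) :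
    Ex p f ≤ Ex p g :=
  Finset.sum_le_sum fun x _ => mul_le_mul_of_nonneg_left (h x) (wt_pos h0 h1 x).le

lemma Ex_nonneg (h0 : 0 < p) (h1 : p < 1) {f : (ι → Bool) → ℝ} (h : ∀ x, 0 ≤ f x) :
    0 ≤ Ex p f :=
  Finset.sum_nonneg fun x _ => mul_nonneg (wt_pos h0 h1 x).le (h x)

lemma Ex_congr {f g : (ι → Bool) → ℝ} (h : ∀ x, f x = g x) : Ex p f = Ex p g := by
  rw [funext h]

lemma abs_Ex_le (h0 : 0 < p) (h1 : p < 1) (f : (ι → Bool) → ℝ) :
    |Ex p f| ≤ Ex p (fun x => |f x|) := by
  refine (Finset.abs_sum_le_sum_abs _ _).trans (le_of_eq ?_)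
  refine Finset.sum_congr rfl fun x _ => ?_
  rw [abs_mul, abs_of_pos (wt_pos h0 h1 x)]

/-- Cauchy-Schwarz -/
lemma Ex_cs (h0 : 0 < p) (h1 : p < 1) (f g : (ι → Bool) → ℝ) :
    Ex p (fun x => f x * g x) ^ 2 ≤ Ex p (fun x => f x ^ 2) * Ex p (fun x => g x ^ 2) := by
  have h := Finset.sum_mul_sq_le_sq_mul_sq Finset.univ
    (fun x : ι → Bool => √(wt p x) * f x) (fun x => √(wt p x) * g x)
  have e : ∀ x : ι → Bool, √(wt p x) ^ 2 = wt p x := fun x => Real.sq_sqrt (wt_pos h0 h1 x).le
  have e1 : ∀ x : ι → Bool, √(wt p x) * f x * (√(wt p x) * g x) = wt p x * (f x * g x) := by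
    intro x
    calc _ = √(wt p x) ^ 2 * (f x * g x) := by ring
      _ = _ := by rw [e]
  simp only [e1, mul_pow, e] at h
  exact h

lemma Ex_single (a : ι) (ψ : Bool → ℝ) :
    Ex p (fun y : ι → Bool => ψ (y a)) = p * ψ true + (1 - p) * ψ false := by
  have h := Ex_prod (p := p) (fun i b => if i = a then ψ b else 1)
  simp only [Finset.prod_ite_eq', Finset.mem_univ, if_true] at h
  rw [h, Finset.prod_eq_single a]
  · simp
  · intro b _ hb; simp [hb]
  · simp

lemma phi_mean (h0 : 0 < p) (h1 : p < 1) : p * phi p true + (1 - p) * phi p false = 0 := by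
  have := sig_pos h0 h1
  simp only [phi, if_true, Bool.false_eq_true, if_false]
  field_simp
  ring

lemma phi_sq (h0 : 0 < p) (h1 : p < 1) :
    p * (phi p true * phi p true) + (1 - p) * (phi p false * phi p false) = 1 := by
  have := sig_pos h0 h1
  have h2 := sig_sq h0 h1
  simp only [phi, if_true, Bool.false_eq_true, if_false]
  field_simp
  rw [h2]; ring

lemma phi_complete (h0 : 0 < p) (h1 : p < 1) (a b : Bool) :
    w1 p b * (1 + phi p a * phi p b) = if a = b then 1 else 0 := by
  have := sig_pos h0 h1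
  have h2 := sig_sq h0 h1
  have h3 : ∀ u v : ℝ, u / sig p * (v / sig p) = u * v / (p * (1 - p)) := by
    intro u v; rw [← h2]; field_simp
  have h4 : 1 - p ≠ 0 := by linarith
  cases a <;> cases b <;> simp only [phi, w1, h3, if_true, Bool.false_eq_true, if_false,
    Bool.true_eq_false] <;> field_simp <;> ring

lemma chi_eq_prod (S : Finset ι) (x : ι → Bool) :
    chi p S x = ∏ i, if i ∈ S then phi p (x i) else 1 := by
  rw [Finset.prod_ite_mem, Finset.univ_inter, chi]

lemma Ex_chi_mul (h0 : 0 < p) (h1 : p < 1) (S T : Finset ι) :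
    Ex p (fun x => chi p S x * chi p T x) = if S = T then 1 else 0 := by
  have h := Ex_prod (p := p)
    (fun i b => (if i ∈ S then phi p b else 1) * (if i ∈ T then phi p b else 1))
  simp only [chi_eq_prod, ← Finset.prod_mul_distrib]
  rw [h]
  split_ifs with hST
  · subst hST
    refine Finset.prod_eq_one fun i _ => ?_
    by_cases hi : i ∈ S
    · simp only [hi, if_true]; exact phi_sq h0 h1
    · simp [hi]
  · obtain ⟨i, hi⟩ : ∃ i, ¬ (i ∈ S ↔ i ∈ T) := by
      by_contra hc
      push Not at hc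
      exact hST (Finset.ext hc)
    refine Finset.prod_eq_zero (Finset.mem_univ i) ?_
    have := phi_mean h0 h1
    by_cases hS : i ∈ S <;> by_cases hT : i ∈ T <;> simp_all

lemma chi_empty (x : ι → Bool) : chi p ∅ x = 1 := by simp [chi]

lemma Ex_chi (h0 : 0 < p) (h1 : p < 1) (S : Finset ι) :
    Ex p (fun x => chi p S x) = if S = ∅ then 1 else 0 := by
  have := Ex_chi_mul h0 h1 S ∅
  simpa only [chi_empty, mul_one] using this

lemma complete (h0 : 0 < p) (h1 : p < 1) (x y : ι → Bool) :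
    wt p y * ∑ S : Finset ι, chi p S x * chi p S y = if x = y then 1 else 0 := by
  have h : ∑ S : Finset ι, chi p S x * chi p S y = ∏ i, (1 + phi p (x i) * phi p (y i)) := by
    rw [Finset.prod_one_add, Finset.powerset_univ]
    exact Finset.sum_congr rfl fun S _ => by rw [chi, chi, Finset.prod_mul_distrib]
  rw [h, wt, ← Finset.prod_mul_distrib]
  simp only [phi_complete h0 h1]
  rw [Finset.prod_boole]
  simp only [Finset.mem_univ, true_imp_iff, funext_iff]

lemma expansion (h0 : 0 < p) (h1 : p < 1) (g : (ι → Bool) → ℝ) (x : ι → Bool) :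
    ∑ S : Finset ι, coef p g S * chi p S x = g x := by
  have h : ∑ S : Finset ι, coef p g S * chi p S x
      = ∑ y, g y * (wt p y * ∑ S : Finset ι, chi p S x * chi p S y) := by
    simp only [coef, Ex, Finset.sum_mul, Finset.mul_sum]
    rw [Finset.sum_comm]
    exact Finset.sum_congr rfl fun y _ => Finset.sum_congr rfl fun S _ => by ring
  rw [h]
  simp only [complete h0 h1]
  simp

lemma parseval (h0 : 0 < p) (h1 : p < 1) (g h : (ι → Bool) → ℝ) :
    Ex p (fun x => g x * h x) = ∑ S : Finset ι, coef p g S * coef p h S := by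
  have e : ∀ x, g x * h x = ∑ S : Finset ι, coef p g S * (h x * chi p S x) := by
    intro x
    conv_lhs => rw [← expansion h0 h1 g x]
    rw [Finset.sum_mul]
    exact Finset.sum_congr rfl fun S _ => by ring
  rw [Ex_congr e, Ex_sum]
  exact Finset.sum_congr rfl fun S _ => by rw [Ex_mul_left]; rfl

lemma parseval_sq (h0 : 0 < p) (h1 : p < 1) (g : (ι → Bool) → ℝ) :
    Ex p (fun x => g x ^ 2) = ∑ S : Finset ι, coef p g S ^ 2 := by
  simp only [sq]; exact parseval h0 h1 g g

lemma coef_empty (g : (ι → Bool) → ℝ) : coef p g ∅ = Ex p g := by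
  simp only [coef, chi_empty, mul_one]

lemma wt_pw (J : Finset ι) (x y : ι → Bool) :
    wt p (J.piecewise x y) * wt p (J.piecewise y x) = wt p x * wt p y := by
  simp only [wt, ← Finset.prod_mul_distrib]
  refine Finset.prod_congr rfl fun i _ => ?_
  by_cases hi : i ∈ J
  · simp [Finset.piecewise, hi]
  · simp [Finset.piecewise, hi, mul_comm]

lemma pw_pw (J : Finset ι) (x y : ι → Bool) :
    J.piecewise (J.piecewise x y) (J.piecewise y x) = x := by
  funext i
  by_cases hi : i ∈ J <;> simp [Finset.piecewise, hi]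

/-- exchanging the coordinates outside `J` between two independent samples -/
lemma Ex_swap (J : Finset ι) (G : (ι → Bool) → (ι → Bool) → ℝ) :
    Ex p (fun x => Ex p (fun y => G x y))
      = Ex p (fun x => Ex p (fun y => G (J.piecewise x y) (J.piecewise y x))) := by
  have key : ∀ H : (ι → Bool) → (ι → Bool) → ℝ, Ex p (fun x => Ex p (fun y => H x y))
      = ∑ z : (ι → Bool) × (ι → Bool), wt p z.1 * wt p z.2 * H z.1 z.2 := by
    intro H
    rw [Fintype.sum_prod_type]
    simp only [Ex, Finset.mul_sum, mul_assoc]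
  rw [key, key]
  let e : (ι → Bool) × (ι → Bool) ≃ (ι → Bool) × (ι → Bool) :=
    Function.Involutive.toPerm (fun z => (J.piecewise z.1 z.2, J.piecewise z.2 z.1))
      (fun z => by simp only [pw_pw])
  rw [← Equiv.sum_comp e]
  refine Finset.sum_congr rfl fun z _ => ?_
  change wt p (J.piecewise z.1 z.2) * wt p (J.piecewise z.2 z.1) *
    G (J.piecewise z.1 z.2) (J.piecewise z.2 z.1) = _
  rw [wt_pw]

lemma Ex_pw (J : Finset ι) (H : (ι → Bool) → ℝ) :
    Ex p H = Ex p (fun x => Ex p (fun y => H (J.piecewise x y))) := by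
  have h := Ex_swap (p := p) J (fun x _ => H x)
  simpa only [Ex_const] using h

/-- conditional expectation given the coordinates in `J` -/
noncomputable def cond (p : ℝ) (J : Finset ι) (F : (ι → Bool) → ℝ) (x : ι → Bool) : ℝ :=
  Ex p (fun y => F (J.piecewise x y))

lemma chi_pw (J T : Finset ι) (x y : ι → Bool) :
    chi p T (J.piecewise x y) = chi p (T ∩ J) x * chi p (T \ J) y := by
  unfold chi
  rw [← Finset.prod_inter_mul_prod_sdiff T J]
  congr 1
  · exact Finset.prod_congr rfl fun i hi => by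
      rw [Finset.piecewise_eq_of_mem _ _ _ (Finset.mem_inter.1 hi).2]
  · exact Finset.prod_congr rfl fun i hi => by
      rw [Finset.piecewise_eq_of_notMem _ _ _ (Finset.mem_sdiff.1 hi).2]

lemma coef_cond (h0 : 0 < p) (h1 : p < 1) (J : Finset ι) (F : (ι → Bool) → ℝ) (T : Finset ι) :
    coef p (cond p J F) T = if T ⊆ J then coef p F T else 0 := by
  have e1 : coef p (cond p J F) T
      = Ex p (fun x => Ex p (fun y => F (J.piecewise x y) * chi p T x)) := by
    unfold coef cond
    exact Ex_congr fun x => by rw [Ex_mul_right]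
  rw [e1, Ex_swap J]
  simp only [pw_pw, chi_pw]
  have e2 : ∀ x, Ex p (fun y => F x * (chi p (T ∩ J) x * chi p (T \ J) y))
      = F x * chi p (T ∩ J) x * (if T \ J = ∅ then 1 else 0) := by
    intro x
    rw [← Ex_chi h0 h1, ← Ex_mul_left]
    exact Ex_congr fun y => by ring
  rw [Ex_congr e2]
  by_cases hT : T ⊆ J
  · simp only [Finset.sdiff_eq_empty_iff_subset, hT, if_true, mul_one,
      Finset.inter_eq_left.2 hT]
    rfl
  · simp only [Finset.sdiff_eq_empty_iff_subset, hT, if_false, mul_zero, Ex_const]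

/-- resampling the coordinates in `J` -/
lemma Ex_resample (h0 : 0 < p) (h1 : p < 1) (J : Finset ι) (f : (ι → Bool) → ℝ) :
    Ex p (fun u => Ex p (fun y => (f u - f (J.piecewise y u)) ^ 2))
      = 2 * ∑ S : Finset ι, if Disjoint S J then 0 else coef p f S ^ 2 := by
  have e0 : ∀ u y : ι → Bool, J.piecewise y u = Jᶜ.piecewise u y := by
    intro u y; rw [Finset.piecewise_compl]
  have e1 : ∀ u, Ex p (fun y => (f u - f (J.piecewise y u)) ^ 2)
      = f u ^ 2 + Ex p (fun y => f (Jᶜ.piecewise u y) ^ 2) - 2 * (f u * cond p Jᶜ f u) := by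
    intro u
    unfold cond
    rw [← Ex_mul_left, ← Ex_mul_left, ← Ex_const (p := p) (ι := ι) (f u ^ 2), ← Ex_add, ← Ex_sub]
    exact Ex_congr fun y => by rw [e0]; ring
  rw [Ex_congr e1, Ex_sub, Ex_add, ← Ex_pw Jᶜ (fun x => f x ^ 2), Ex_mul_left, parseval h0 h1,
    parseval_sq h0 h1, ← two_mul, ← mul_sub, ← Finset.sum_sub_distrib]
  congr 1
  refine Finset.sum_congr rfl fun S _ => ?_
  rw [coef_cond h0 h1]
  by_cases hS : Disjoint S J
  · have : S ⊆ Jᶜ := Finset.subset_compl_iff_disjoint_right.2 hS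
    simp [hS, this, sq]
  · have : ¬ S ⊆ Jᶜ := fun h => hS (Finset.subset_compl_iff_disjoint_right.1 h)
    simp [hS, this]

end basic

end Vale.Agent.P063
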