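import Vale.Agent.P063.Fourier

/-! Hypercontractivity, a low-level inequality and its conditional form. -/

set_option linter.unusedSectionVars false

namespace Vale.Agent.P063

open Finset

variable {ι : Type*} [Fintype ι] [DecidableEq ι] {p : ℝ}

/-- hypercontractivity constant -/
noncomputable def kap (p : ℝ) : ℝ := 2 / sig p

lemma four_le_kap (h0 : 0 < p) (h1 : p < 1) : 4 ≤ kap p := by
  have := sig_pos h0 h1
  have := sig_le h0 h1
  rw [kap, le_div_iff₀ (by assumption)]
  linarith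

lemma two_point (h0 : 0 < p) (h1 : p < 1) (u v : ℝ) :
    p * (u + phi p true * v) ^ 4 + (1 - p) * (u + phi p false * v) ^ 4
      ≤ u ^ 4 + 8 * (u ^ 2 * v ^ 2) + 3 / 4 * kap p ^ 2 * v ^ 4 := by
  have hs := sig_pos h0 h1
  have h2 := sig_sq h0 h1
  set s := sig p with hsdef
  set w := v / s with hw
  have hv : v = s * w := by rw [hw]; field_simp
  have e1 : phi p true * v = (1 - p) * w := by
    simp only [phi, if_true, ← hsdef, hw]; ring
  have e2 : phi p false * v = -p * w := by
    simp only [phi, Bool.false_eq_true, if_false, ← hsdef, hw]; ring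
  have e3 : kap p ^ 2 * v ^ 4 = 4 * (p * (1 - p)) * w ^ 4 := by
    rw [kap, ← hsdef, ← h2, hv]; field_simp; ring
  have e4 : v ^ 2 = p * (1 - p) * w ^ 2 := by rw [hv, mul_pow, h2]
  rw [e1, e2, mul_assoc (3 / 4), e3, e4]
  have hq : 0 < p * (1 - p) := mul_pos h0 (by linarith)
  set q := p * (1 - p) with hq'
  have lhs : p * (u + (1 - p) * w) ^ 4 + (1 - p) * (u + -p * w) ^ 4
      = u ^ 4 + 6 * q * u ^ 2 * w ^ 2 + 4 * q * (1 - 2 * p) * u * w ^ 3
        + q * (1 - 3 * q) * w ^ 4 := by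
    rw [hq']; ring
  rw [lhs]
  have a1 : 0 ≤ q * w ^ 2 * (u - (1 - 2 * p) * w) ^ 2 := by positivity
  have a2 : (1 - 2 * p) ^ 2 = 1 - 4 * q := by rw [hq']; ring
  have a3 : 0 ≤ q * q * w ^ 4 := by positivity
  have a4 : q * w ^ 2 * (u - (1 - 2 * p) * w) ^ 2
      = q * u ^ 2 * w ^ 2 - 2 * q * (1 - 2 * p) * u * w ^ 3 + q * (1 - 2 * p) ^ 2 * w ^ 4 := by
    ring
  rw [a2] at a4
  nlinarith

lemma hyper (h0 : 0 < p) (h1 : p < 1) (J : Finset ι) : ∀ c : Finset ι → ℝ,
    Ex p (fun x => (∑ T ∈ J.powerset, c T * chi p T x) ^ 4)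
      ≤ (∑ T ∈ J.powerset, kap p ^ T.card * c T ^ 2) ^ 2 := by
  induction J using Finset.induction_on with
  | empty =>
    intro c
    simp only [Finset.powerset_empty, Finset.sum_singleton, chi_empty, mul_one, Ex_const,
      Finset.card_empty, pow_zero, one_mul]
    exact le_of_eq (by ring)
  | insert a J ha ih =>
    intro c
    have hk := four_le_kap h0 h1
    set g0 : (ι → Bool) → ℝ := fun x => ∑ T ∈ J.powerset, c T * chi p T x with hg0
    set g1 : (ι → Bool) → ℝ := fun x => ∑ T ∈ J.powerset, c (insert a T) * chi p T x with hg1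
    set A := ∑ T ∈ J.powerset, kap p ^ T.card * c T ^ 2 with hA
    set B := ∑ T ∈ J.powerset, kap p ^ T.card * c (insert a T) ^ 2 with hB
    have hA0 : 0 ≤ A := Finset.sum_nonneg fun T _ => by positivity
    have hB0 : 0 ≤ B := Finset.sum_nonneg fun T _ => by positivity
    have i0 : Ex p (fun x => g0 x ^ 4) ≤ A ^ 2 := ih c
    have i1 : Ex p (fun x => g1 x ^ 4) ≤ B ^ 2 := ih (fun T => c (insert a T))
    have hnot : ∀ T ∈ J.powerset, a ∉ T := fun T hT h => ha (Finset.mem_powerset.1 hT h)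
    have rhs : ∑ T ∈ (insert a J).powerset, kap p ^ T.card * c T ^ 2 = A + kap p * B := by
      rw [Finset.sum_powerset_insert ha, hB, Finset.mul_sum]
      congr 1
      refine Finset.sum_congr rfl fun T hT => ?_
      rw [Finset.card_insert_of_notMem (hnot T hT)]; ring
    have chiJ : ∀ T ∈ J.powerset, ∀ x y : ι → Bool,
        chi p T (({a} : Finset ι).piecewise y x) = chi p T x := by
      intro T hT x y
      refine Finset.prod_congr rfl fun i hi => ?_
      rw [Finset.piecewise_eq_of_notMem]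
      intro h
      rw [Finset.mem_singleton] at h
      exact hnot T hT (h ▸ hi)
    have lhs : ∀ x y : ι → Bool, ∑ T ∈ (insert a J).powerset,
        c T * chi p T (({a} : Finset ι).piecewise y x) = g0 x + phi p (y a) * g1 x := by
      intro x y
      rw [Finset.sum_powerset_insert ha, hg0, hg1]
      simp only
      rw [Finset.mul_sum]
      congr 1
      · exact Finset.sum_congr rfl fun T hT => by rw [chiJ T hT]
      · refine Finset.sum_congr rfl fun T hT => ?_
        have := chiJ T hT x y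
        unfold chi at this ⊢
        rw [Finset.prod_insert (hnot T hT), this,
          Finset.piecewise_eq_of_mem _ _ _ (Finset.mem_singleton_self a)]
        ring
    rw [rhs, Ex_pw {a}, Ex_comm]
    simp only [lhs]
    have step : ∀ x, Ex p (fun y : ι → Bool => (g0 x + phi p (y a) * g1 x) ^ 4)
        ≤ g0 x ^ 4 + 8 * (g0 x ^ 2 * g1 x ^ 2) + 3 / 4 * kap p ^ 2 * g1 x ^ 4 := by
      intro x
      rw [Ex_single a (fun b => (g0 x + phi p b * g1 x) ^ 4)]
      exact two_point h0 h1 _ _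
    refine (Ex_mono h0 h1 step).trans ?_
    rw [Ex_add, Ex_add, Ex_mul_left, Ex_mul_left]
    have cs := Ex_cs h0 h1 (fun x => g0 x ^ 2) (fun x => g1 x ^ 2)
    simp only [← pow_mul] at cs
    have n0 : 0 ≤ Ex p (fun x => g0 x ^ 4) := Ex_nonneg h0 h1 fun x => by positivity
    have n1 : 0 ≤ Ex p (fun x => g1 x ^ 4) := Ex_nonneg h0 h1 fun x => by positivity
    have cs2 : Ex p (fun x => g0 x ^ 2 * g1 x ^ 2) ≤ A * B := by
      refine (abs_le_of_sq_le_sq' (cs.trans ?_) (mul_nonneg hA0 hB0)).2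
      rw [mul_pow]
      exact mul_le_mul i0 i1 n1 (by positivity)
    have t1 : 3 / 4 * kap p ^ 2 * Ex p (fun x => g1 x ^ 4) ≤ kap p ^ 2 * B ^ 2 := by
      have : 0 ≤ kap p ^ 2 := by positivity
      nlinarith
    have t2 : 8 * (A * B) ≤ 2 * kap p * (A * B) :=
      mul_le_mul_of_nonneg_right (by linarith) (mul_nonneg hA0 hB0)
    nlinarith

/-- low-level inequality -/
lemma level (h0 : 0 < p) (h1 : p < 1) (g : (ι → Bool) → ℝ) (𝒯 : Finset (Finset ι)) (K η : ℝ)
    (hK0 : 0 ≤ K) (hη : 0 ≤ η) (hK : ∀ T ∈ 𝒯, kap p ^ T.card ≤ K)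
    (hg : Ex p (fun x => g x ^ 2) ≤ η ^ 2) :
    ∑ T ∈ 𝒯, coef p g T ^ 2 ≤ K * η * Ex p (fun x => |g x|) := by
  set W := ∑ T ∈ 𝒯, coef p g T ^ 2 with hW
  set u : (ι → Bool) → ℝ := fun x => ∑ T ∈ 𝒯, coef p g T * chi p T x with hu
  have hW0 : 0 ≤ W := Finset.sum_nonneg fun T _ => sq_nonneg _
  set N := Ex p (fun x => |g x|) with hN
  have hN0 : 0 ≤ N := Ex_nonneg h0 h1 fun x => abs_nonneg _
  have e1 : Ex p (fun x => g x * u x) = W := by
    simp only [hu, Finset.mul_sum]
    rw [Ex_sum]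
    refine Finset.sum_congr rfl fun T _ => ?_
    rw [sq]
    conv_rhs => rw [coef]
    rw [← Ex_mul_right]
    exact Ex_congr fun x => by unfold coef; ring
  have e2 : Ex p (fun x => u x ^ 4) ≤ (K * W) ^ 2 := by
    have h := hyper h0 h1 Finset.univ (fun T => if T ∈ 𝒯 then coef p g T else 0)
    simp only [Finset.powerset_univ, ite_mul, zero_mul, Finset.sum_ite_mem, Finset.univ_inter,
      ite_pow, mul_ite] at h
    simp only [ne_eq, OfNat.ofNat_ne_zero, not_false_eq_true, zero_pow, mul_zero,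
      Finset.sum_ite_mem, Finset.univ_inter] at h
    refine h.trans (pow_le_pow_left₀ (Finset.sum_nonneg fun T _ => ?_) ?_ 2)
    · have := four_le_kap h0 h1
      positivity
    · rw [hW, Finset.mul_sum]
      exact Finset.sum_le_sum fun T hT => mul_le_mul_of_nonneg_right (hK T hT) (sq_nonneg _)
  have c1 := Ex_cs h0 h1 (fun x => √|g x|) (fun x => √|g x| * |u x|)
  have s1 : ∀ x, √|g x| ^ 2 = |g x| := fun x => Real.sq_sqrt (abs_nonneg _)
  have s2 : ∀ x, √|g x| * (√|g x| * |u x|) = |g x * u x| := by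
    intro x; rw [← mul_assoc, ← sq, s1, abs_mul]
  simp only [s2, mul_pow, s1, sq_abs] at c1
  have c2 := Ex_cs h0 h1 (fun x => |g x|) (fun x => u x ^ 2)
  simp only [sq_abs, ← pow_mul] at c2
  have c3 : Ex p (fun x => |g x| * u x ^ 2) ≤ η * (K * W) := by
    refine (abs_le_of_sq_le_sq' (c2.trans ?_) (by positivity)).2
    rw [mul_pow]
    exact mul_le_mul hg e2 (Ex_nonneg h0 h1 fun x => Even.pow_nonneg (by decide) _)
      (by positivity)
  have c4 : W ≤ Ex p (fun x => |g x * u x|) := by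
    rw [← e1]; exact Ex_mono h0 h1 fun x => le_abs_self _
  have c5 : W ^ 2 ≤ N * (η * (K * W)) :=
    ((pow_le_pow_left₀ hW0 c4 2).trans c1).trans (mul_le_mul_of_nonneg_left c3 hN0)
  rcases hW0.eq_or_lt with h | h
  · rw [← h]; positivity
  · have : W * W ≤ (K * η * N) * W := by nlinarith
    exact le_of_mul_le_mul_right this h

/-- the restriction of `f` that fixes the coordinates in `Z` to their values in `x` -/
def restr (Z : Finset ι) (f : (ι → Bool) → ℝ) (x : ι → Bool) : (ι → Bool) → ℝ :=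
  fun y => f (Z.piecewise x y)

lemma Ex_coef_restr (h0 : 0 < p) (h1 : p < 1) (Z T : Finset ι) (hT : Disjoint T Z)
    (f : (ι → Bool) → ℝ) :
    Ex p (fun x => coef p (restr Z f x) T ^ 2)
      = ∑ S : Finset ι, if S \ Z = T then coef p f S ^ 2 else 0 := by
  have e1 : ∀ x, coef p (restr Z f x) T = cond p Z (fun u => f u * chi p T u) x := by
    intro x
    unfold coef cond restr
    refine Ex_congr fun y => ?_
    beta_reduce
    rw [chi_pw, Finset.disjoint_iff_inter_eq_empty.1 hT, chi_empty, one_mul,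
      Finset.sdiff_eq_self_of_disjoint hT]
  simp only [e1]
  rw [parseval_sq h0 h1]
  simp only [coef_cond h0 h1]
  rw [← Finset.sum_filter]
  have e2 : ∀ R : Finset ι, (if R ⊆ Z then coef p (fun u => f u * chi p T u) R else 0) ^ 2
      = if R ⊆ Z then coef p f (R ∪ T) ^ 2 else 0 := by
    intro R
    split_ifs with hR
    · congr 1
      unfold coef
      refine Ex_congr fun x => ?_
      have : Disjoint R T := Finset.disjoint_of_subset_left hR hT.symm
      unfold chi
      rw [Finset.prod_union this]; ring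
    · simp
  simp only [e2]
  rw [← Finset.sum_filter]
  refine Finset.sum_bij' (fun R _ => R ∪ T) (fun S _ => S ∩ Z) ?_ ?_ ?_ ?_ ?_
  · intro R hR
    simp only [Finset.mem_filter, Finset.mem_univ, true_and] at hR ⊢
    rw [Finset.union_sdiff_distrib, Finset.sdiff_eq_empty_iff_subset.2 hR,
      Finset.sdiff_eq_self_of_disjoint hT, Finset.empty_union]
  · intro S _
    simp only [Finset.mem_filter, Finset.mem_univ, true_and]
    exact Finset.inter_subset_right
  · intro R hR
    simp only [Finset.mem_filter, Finset.mem_univ, true_and] at hR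
    rw [Finset.union_inter_distrib_right, Finset.inter_eq_left.2 hR,
      Finset.disjoint_iff_inter_eq_empty.1 hT, Finset.union_empty]
  · intro S hS
    simp only [Finset.mem_filter, Finset.mem_univ, true_and] at hS
    rw [← hS, Finset.union_comm, Finset.sdiff_union_inter]
  · intro R _; rfl

/-- the weight of `F` on nonempty subsets of `J` -/
noncomputable def vr (p : ℝ) (J : Finset ι) (F : (ι → Bool) → ℝ) : ℝ :=
  ∑ T ∈ J.powerset.erase ∅, coef p F T ^ 2

/-- the conditional low-level inequality -/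
lemma core (h0 : 0 < p) (h1 : p < 1) (f : (ι → Bool) → ℝ) (hf : ∀ x, f x = 0 ∨ f x = 1)
    (Z J : Finset ι) (hJ : Disjoint J Z) (K η : ℝ) (hK0 : 0 ≤ K) (hη : 0 ≤ η)
    (hv : ∀ x, vr p J (restr Z f x) ≤ η ^ 2) :
    (∑ S : Finset ι, if S \ Z ⊆ J ∧ S \ Z ≠ ∅ ∧ kap p ^ (S \ Z).card ≤ K
        then coef p f S ^ 2 else 0)
      ≤ K * η * (2 * ∑ S : Finset ι, if Disjoint S J then 0 else coef p f S ^ 2) := by
  classical
  set 𝒯 := (J.powerset.erase ∅).filter (fun T => kap p ^ T.card ≤ K) with h𝒯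
  have mem𝒯 : ∀ T, T ∈ 𝒯 ↔ T ⊆ J ∧ T ≠ ∅ ∧ kap p ^ T.card ≤ K := by
    intro T
    simp only [h𝒯, Finset.mem_filter, Finset.mem_erase, Finset.mem_powerset]
    tauto
  set g : (ι → Bool) → (ι → Bool) → ℝ :=
    fun x y => cond p J (restr Z f x) y - Ex p (restr Z f x) with hg
  have cg : ∀ x T, coef p (g x) T
      = if T ∈ J.powerset.erase ∅ then coef p (restr Z f x) T else 0 := by
    intro x T
    have : coef p (g x) T = coef p (cond p J (restr Z f x)) T
        - Ex p (restr Z f x) * Ex p (fun y => chi p T y) := by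
      rw [← Ex_mul_left, coef, coef, ← Ex_sub]
      exact Ex_congr fun y => by simp only [hg]; ring
    rw [this, coef_cond h0 h1, Ex_chi h0 h1]
    by_cases hT : T = ∅
    · subst hT; simp [coef_empty]
    · by_cases hTJ : T ⊆ J <;> simp [hT, hTJ]
  have l2 : ∀ x, Ex p (fun y => g x y ^ 2) ≤ η ^ 2 := by
    intro x
    rw [parseval_sq h0 h1]
    refine le_trans (le_of_eq ?_) (hv x)
    simp only [cg, ite_pow, ne_eq, OfNat.ofNat_ne_zero, not_false_eq_true, zero_pow,
      Finset.sum_ite_mem, Finset.univ_inter, vr]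
  have lev : ∀ x, ∑ T ∈ 𝒯, coef p (restr Z f x) T ^ 2 ≤ K * η * Ex p (fun y => |g x y|) := by
    intro x
    refine le_trans (le_of_eq ?_)
      (level h0 h1 (g x) 𝒯 K η hK0 hη (fun T hT => ((mem𝒯 T).1 hT).2.2) (l2 x))
    refine Finset.sum_congr rfl fun T hT => ?_
    rw [cg, if_pos (Finset.mem_filter.1 hT).1]
  have lhs : (∑ S : Finset ι, if S \ Z ⊆ J ∧ S \ Z ≠ ∅ ∧ kap p ^ (S \ Z).card ≤ K
        then coef p f S ^ 2 else 0)
      = Ex p (fun x => ∑ T ∈ 𝒯, coef p (restr Z f x) T ^ 2) := by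
    rw [Ex_sum, Finset.sum_congr rfl fun T hT => Ex_coef_restr h0 h1 Z T
      (Finset.disjoint_of_subset_left ((mem𝒯 T).1 hT).1 hJ) f, Finset.sum_comm]
    refine Finset.sum_congr rfl fun S _ => ?_
    rw [Finset.sum_ite_eq]
    simp only [mem𝒯]
  rw [lhs]
  refine (Ex_mono h0 h1 lev).trans ?_
  rw [Ex_mul_left]
  refine mul_le_mul_of_nonneg_left ?_ (mul_nonneg hK0 hη)
  rw [← Ex_resample h0 h1]
  -- the first moment
  have pw : ∀ x y y' : ι → Bool, Z.piecewise x (J.piecewise y y')
      = J.piecewise y (Z.piecewise x y') := by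
    intro x y y'
    funext i
    by_cases hi : i ∈ J
    · have : i ∉ Z := Finset.disjoint_left.1 hJ hi
      simp [Finset.piecewise, hi, this]
    · by_cases hz : i ∈ Z <;> simp [Finset.piecewise, hi, hz]
  have b1 : ∀ x y, |g x y| ≤ Ex p (fun y' => Ex p (fun y'' =>
      (f (J.piecewise y (Z.piecewise x y')) - f (J.piecewise y'' (Z.piecewise x y'))) ^ 2)) := by
    intro x y
    have : g x y = Ex p (fun y' => Ex p (fun y'' =>
        f (J.piecewise y (Z.piecewise x y')) - f (J.piecewise y'' (Z.piecewise x y')))) := by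
      simp only [hg, Ex_sub, Ex_const]
      rw [Ex_pw J (restr Z f x), Ex_comm]
      simp only [cond, restr, pw]
    rw [this]
    refine (abs_Ex_le h0 h1 _).trans (Ex_mono h0 h1 fun y' => ?_)
    refine (abs_Ex_le h0 h1 _).trans (Ex_mono h0 h1 fun y'' => ?_)
    rcases hf (J.piecewise y (Z.piecewise x y')) with h | h <;>
      rcases hf (J.piecewise y'' (Z.piecewise x y')) with h' | h' <;> rw [h, h'] <;> norm_num
  refine (Ex_mono h0 h1 fun x => Ex_mono h0 h1 (b1 x)).trans (le_of_eq ?_)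
  set H : (ι → Bool) → (ι → Bool) → ℝ :=
    fun y u => Ex p (fun y'' => (f (J.piecewise y u) - f (J.piecewise y'' u)) ^ 2) with hH
  have r1 : Ex p (fun x => Ex p (fun y => Ex p (fun y' => H y (Z.piecewise x y'))))
      = Ex p (fun y => Ex p (fun u => H y u)) := by
    rw [Ex_comm]
    exact Ex_congr fun y => (Ex_pw Z (H y)).symm
  refine r1.trans ?_
  rw [Ex_pw J (fun u => Ex p (fun y => (f u - f (J.piecewise y u)) ^ 2))]
  refine Ex_congr fun y => Ex_congr fun u => Ex_congr fun y'' => ?_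
  congr 3
  funext i
  by_cases hi : i ∈ J <;> simp [Finset.piecewise, hi]

/-- invariance of coefficients under a symmetry fixing `Z` -/
lemma coef_restr_map (f : (ι → Bool) → ℝ) (π : Equiv.Perm ι) (hf : ∀ x, f (fun i => x (π i)) = f x)
    (Z : Finset ι) (hZ : ∀ i ∈ Z, π i = i) (x : ι → Bool) (T : Finset ι) :
    coef p (restr Z f x) (T.map π.toEmbedding) = coef p (restr Z f x) T := by
  have hZ' : ∀ i, π i ∈ Z ↔ i ∈ Z := by
    intro i
    constructor
    · intro h
      have := π.injective (hZ _ h)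
      rwa [this] at h
    · intro h; rwa [hZ i h]
  have e1 : ∀ y, restr Z f x (fun i => y (π i)) = restr Z f x y := by
    intro y
    unfold restr
    rw [← hf (Z.piecewise x y)]
    congr 1
    funext i
    by_cases hi : i ∈ Z
    · simp [Finset.piecewise, hi, hZ i hi]
    · simp [Finset.piecewise, hi, hZ']
  unfold coef Ex
  let e : (ι → Bool) ≃ (ι → Bool) := Equiv.arrowCongr π.symm (Equiv.refl Bool)
  rw [← Equiv.sum_comp e (fun y => wt p y * (restr Z f x y * chi p T y))]
  refine Finset.sum_congr rfl fun y _ => ?_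
  have he : e y = fun i => y (π i) := by funext i; simp [e]
  rw [he, e1]
  congr 1
  · unfold wt
    exact (Equiv.prod_comp π (fun i => w1 p (y i))).symm
  · beta_reduce
    congr 1
    unfold chi
    rw [Finset.prod_map]
    rfl

lemma vr_map (f : (ι → Bool) → ℝ) (π : Equiv.Perm ι) (hf : ∀ x, f (fun i => x (π i)) = f x)
    (Z : Finset ι) (hZ : ∀ i ∈ Z, π i = i) (x : ι → Bool) (J J' : Finset ι)
    (hJ : ∀ i, π i ∈ J' ↔ i ∈ J) :
    vr p J' (restr Z f x) = vr p J (restr Z f x) := by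
  unfold vr
  symm
  refine Finset.sum_equiv π.finsetCongr ?_ ?_
  · intro T
    simp only [Finset.mem_erase, Finset.mem_powerset, Equiv.finsetCongr_apply, ne_eq,
      Finset.map_eq_empty]
    refine and_congr_right fun _ => ⟨fun h j hj => ?_, fun h i hi => ?_⟩
    · obtain ⟨i, hi, rfl⟩ := Finset.mem_map.1 hj
      exact (hJ i).2 (h hi)
    · exact (hJ i).1 (h (Finset.mem_map_of_mem _ hi))
  · intro T _
    rw [Equiv.finsetCongr_apply, coef_restr_map f π hf Z hZ]

lemma sum_vr_le (h0 : 0 < p) (h1 : p < 1) {α : Type*} [DecidableEq α] (A : Finset α)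
    (J : α → Finset ι) (hJ : ∀ u ∈ A, ∀ v ∈ A, u ≠ v → Disjoint (J u) (J v))
    (F : (ι → Bool) → ℝ) (hF : ∀ x, F x = 0 ∨ F x = 1) :
    ∑ v ∈ A, vr p (J v) F ≤ 1 := by
  unfold vr
  rw [← Finset.sum_biUnion]
  · refine (Finset.sum_le_sum_of_subset_of_nonneg (Finset.subset_univ _)
      fun T _ _ => sq_nonneg _).trans ?_
    rw [← parseval_sq h0 h1, ← Ex_const (p := p) (ι := ι) 1]
    refine Ex_mono h0 h1 fun x => ?_
    rcases hF x with h | h <;> rw [h] <;> norm_num
  · intro u hu v hv huv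
    rw [Function.onFun, Finset.disjoint_left]
    intro T hT hT'
    simp only [Finset.mem_erase, Finset.mem_powerset] at hT hT'
    obtain ⟨i, hi⟩ := Finset.nonempty_iff_ne_empty.2 hT.1
    exact Finset.disjoint_left.1 (hJ u hu v hv huv) (hT.2 hi) (hT'.2 hi)

end Vale.Agent.P063
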