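import Vale.Agent.P063.Spectral

/-! Choice of parameters, the Margulis-Russo formula and the width bound. -/

set_option linter.unusedSectionVars false

namespace Vale.Agent.P063

open Finset

lemma rpow_le_one_add_sq (L α : ℝ) (hL : 0 ≤ L) (h0 : 0 ≤ α) (h2 : α ≤ 2) : L ^ α ≤ 1 + L ^ 2 := by
  rcases le_total L 1 with h | h
  · have := Real.rpow_le_one hL h h0
    nlinarith [sq_nonneg L]
  · have := Real.rpow_le_rpow_of_exponent_le h h2
    rw [Real.rpow_two] at this
    linarith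

lemma alpha_bounds {r : ℕ} (hr : 2 ≤ r) :
    0 ≤ (r : ℝ) / (r - 1) ∧ (r : ℝ) / (r - 1) ≤ 2 := by
  have h : (2 : ℝ) ≤ r := by exact_mod_cast hr
  refine ⟨div_nonneg (by linarith) (by linarith), ?_⟩
  rw [div_le_iff₀ (by linarith)]
  linarith

lemma small_dg_real {r : ℕ} (hr : 2 ≤ r) (d s : ℕ) (t L : ℝ) (ht0 : 0 ≤ t) (ht1 : t ≤ 1)
    (hL : 0 ≤ L) (hd : d ^ r ≤ r ^ r * s ^ (r - 1))
    (hs : (s : ℝ) ≤ t ^ 2 * L ^ ((r : ℝ) / (r - 1))) : (d : ℝ) ≤ r * t * L := by
  have h2 : (2 : ℝ) ≤ r := by exact_mod_cast hr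
  have hd' : (d : ℝ) ^ r ≤ (r : ℝ) ^ r * (s : ℝ) ^ (r - 1) := by exact_mod_cast hd
  have e1 : (L ^ ((r : ℝ) / (r - 1))) ^ (r - 1) = L ^ r := by
    rw [← Real.rpow_natCast, ← Real.rpow_mul hL, Nat.cast_sub (by omega), Nat.cast_one,
      div_mul_cancel₀ _ (by linarith), Real.rpow_natCast]
  have e2 : (s : ℝ) ^ (r - 1) ≤ t ^ r * L ^ r := by
    refine (pow_le_pow_left₀ (Nat.cast_nonneg _) hs _).trans ?_
    rw [mul_pow, e1, ← pow_mul]
    exact mul_le_mul_of_nonneg_right (pow_le_pow_of_le_one ht0 ht1 (by omega)) (by positivity)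
  refine le_of_pow_le_pow_left₀ (n := r) (by omega) (by positivity) (hd'.trans ?_)
  rw [mul_pow, mul_pow, mul_assoc]
  exact mul_le_mul_of_nonneg_left e2 (by positivity)

lemma num_sqrt (n : ℕ) (hn : 2 ≤ n) : Real.exp (Real.log n / 2) ≤ 2 * (Nat.sqrt n : ℝ) := by
  have hn2 : (2 : ℝ) ≤ n := by exact_mod_cast hn
  have hexp : Real.exp (Real.log n) = n := Real.exp_log (by linarith)
  have hM0 : 0 < Nat.sqrt n := Nat.sqrt_pos.2 (by omega)
  have hM1 : (1 : ℝ) ≤ Nat.sqrt n := by exact_mod_cast hM0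
  have a : (n : ℝ) ≤ ((Nat.sqrt n : ℝ) + 1) * (Nat.sqrt n + 1) := by
    exact_mod_cast (Nat.lt_succ_sqrt n).le
  have b : Real.exp (Real.log n / 2) ^ 2 = n := by
    rw [← Real.exp_nat_mul]
    conv_rhs => rw [← hexp]
    congr 1; push_cast; ring
  refine (abs_le_of_sq_le_sq' ?_ (by positivity)).2
  rw [b]; nlinarith

lemma num_B (L M : ℝ) (hM2 : Real.exp (L / 2) ≤ 2 * M) :
    1 ≤ (2 * Real.exp (-(L / 4))) ^ 2 * M := by
  have b : Real.exp (-(L / 4)) ^ 2 * Real.exp (L / 2) = 1 := by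
    rw [← Real.exp_nat_mul, ← Real.exp_add, ← Real.exp_zero]; congr 1; push_cast; ring
  have c : 0 < Real.exp (-(L / 4)) ^ 2 := by positivity
  have d := mul_le_mul_of_nonneg_left hM2 c.le
  have e : 0 < Real.exp (L / 2) := Real.exp_pos _
  nlinarith

lemma num_DM (L La M s r : ℝ) (hL : 0 ≤ L) (hLa0 : 0 ≤ La) (hLa : La ≤ 1 + L ^ 2)
    (hM2 : Real.exp (L / 2) ≤ 2 * M) (hs0 : 0 < s) (hs1 : s ≤ 1 / 2) (hr : 2 ≤ r) :
    2 * r * ((s / (16 * r)) ^ 2 * La) ≤ M := by
  have q2 := Real.quadratic_le_exp_of_nonneg (x := L / 2) (by positivity)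
  have a : La ≤ 16 * M := by nlinarith
  have b : 2 * r * (s / (16 * r)) ^ 2 ≤ 1 / 16 := by
    have : 2 * r * (s / (16 * r)) ^ 2 = s ^ 2 / (128 * r) := by field_simp; ring
    rw [this, div_le_iff₀ (by positivity)]
    nlinarith
  calc 2 * r * ((s / (16 * r)) ^ 2 * La) = (2 * r * (s / (16 * r)) ^ 2) * La := by ring
    _ ≤ (1 / 16) * (16 * M) := mul_le_mul b a hLa0 (by norm_num)
    _ = M := by ring

lemma num_kap {p : ℝ} (h0 : 0 < p) (h1 : p < 1) (d : ℕ) (r L : ℝ) (hr : 0 < r)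
    (hd : (d : ℝ) ≤ r * (sig p / (16 * r)) * L) : kap p ^ d ≤ Real.exp (L / 8) := by
  have hs0 := sig_pos h0 h1
  have k0 : 0 ≤ kap p := le_trans (by norm_num) (four_le_kap h0 h1)
  have b : kap p ≤ Real.exp (kap p) := le_trans (by linarith) (Real.add_one_le_exp _)
  refine (pow_le_pow_left₀ k0 b _).trans ?_
  rw [← Real.exp_nat_mul, Real.exp_le_exp]
  refine (mul_le_mul_of_nonneg_right hd k0).trans (le_of_eq ?_)
  rw [kap]; field_simp; ring

lemma num_final (L La s r : ℝ) (hL : 0 ≤ L) (hLa0 : 0 < La) (hLa : La ≤ 1 + L ^ 2)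
    (hs0 : 0 < s) (hs1 : s ≤ 1 / 2) (hr : 2 ≤ r) :
    (4 * Real.exp (L / 8) * (2 * Real.exp (-(L / 4))) * r + 1 / ((s / (16 * r)) ^ 2 * La))
      * (s ^ 2 * La) ≤ 512 * r ^ 2 := by
  have q8 := Real.quadratic_le_exp_of_nonneg (x := L / 8) (by positivity)
  have e1 : 1 / ((s / (16 * r)) ^ 2 * La) * (s ^ 2 * La) = 256 * r ^ 2 := by
    field_simp; ring
  have e2 : Real.exp (L / 8) * Real.exp (-(L / 4)) * Real.exp (L / 8) = 1 := by
    rw [← Real.exp_add, ← Real.exp_add, ← Real.exp_zero]; congr 1; ring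
  have e3 : La ≤ 128 * Real.exp (L / 8) := by nlinarith
  have e4 : s ^ 2 * La ≤ 32 * Real.exp (L / 8) := by
    have : s ^ 2 ≤ 1 / 4 := by nlinarith
    nlinarith
  rw [add_mul, e1]
  have e5 : 4 * Real.exp (L / 8) * (2 * Real.exp (-(L / 4))) * r * (s ^ 2 * La) ≤ 256 * r := by
    refine (mul_le_mul_of_nonneg_left e4 (by positivity)).trans (le_of_eq ?_)
    calc _ = 256 * r * (Real.exp (L / 8) * Real.exp (-(L / 4)) * Real.exp (L / 8)) := by ring
      _ = _ := by rw [e2, mul_one]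
  nlinarith

/-- the spectral inequality: the variance is at most `512 r^2 / (p (1-p) (log n)^(r/(r-1)))`
times the mean spectral size -/
lemma spectral_main {n r : ℕ} {p : ℝ} (hr : 2 ≤ r) (hn : 2 ≤ n) (h0 : 0 < p) (h1 : p < 1)
    (f : (Edge n r → Bool) → ℝ) (hf : ∀ x, f x = 0 ∨ f x = 1)
    (hs : ∀ σ x, f (fun e => x (permE σ e)) = f x) :
    (∑ S : Finset (Edge n r), if S = ∅ then 0 else coef p f S ^ 2)
        * (sig p ^ 2 * Real.log n ^ ((r : ℝ) / (r - 1)))
      ≤ 512 * r ^ 2 * ∑ S : Finset (Edge n r), S.card * coef p f S ^ 2 := by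
  have hr2 : (2 : ℝ) ≤ r := by exact_mod_cast hr
  have hn2 : (2 : ℝ) ≤ n := by exact_mod_cast hn
  have hL0 : 0 < Real.log n := Real.log_pos (by linarith)
  have hLa0 : 0 < Real.log n ^ ((r : ℝ) / (r - 1)) := Real.rpow_pos_of_pos hL0 _
  have hLa1 : Real.log n ^ ((r : ℝ) / (r - 1)) ≤ 1 + Real.log n ^ 2 :=
    rpow_le_one_add_sq _ _ hL0.le (alpha_bounds hr).1 (alpha_bounds hr).2
  have hs0 := sig_pos h0 h1
  have hs1 := sig_le h0 h1
  have ht0 : 0 < sig p / (16 * r) := by positivity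
  have ht1 : sig p / (16 * r) ≤ 1 := by rw [div_le_one (by positivity)]; linarith
  have hM2 := num_sqrt n hn
  have hK : ∀ S : Finset (Edge n r), S ≠ ∅ →
      (S.card : ℝ) ≤ (sig p / (16 * r)) ^ 2 * Real.log n ^ ((r : ℝ) / (r - 1)) →
      ∃ v ∈ vs S, kap p ^ dg S v ≤ Real.exp (Real.log n / 8) := by
    intro S hS hSD
    obtain ⟨v, hv, hd⟩ := exists_small_dg (by omega) S hS
    exact ⟨v, hv, num_kap h0 h1 _ r _ (by linarith)
      (small_dg_real hr _ _ _ _ ht0.le ht1 hL0.le hd hSD)⟩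
  have main := spectral h0 h1 f hf hs (Nat.sqrt n) (Nat.sqrt_pos.2 (by omega)) (Nat.sqrt_le n)
    (Real.exp (Real.log n / 8)) (2 * Real.exp (-(Real.log n / 4))) _ (by positivity)
    (by positivity) (by positivity) (num_B _ _ hM2)
    (num_DM _ _ _ _ _ hL0.le hLa0.le hLa1 hM2 hs0 hs1 hr2) hK
  have X0 : 0 ≤ ∑ S : Finset (Edge n r), (S.card : ℝ) * coef p f S ^ 2 :=
    Finset.sum_nonneg fun S _ => by positivity
  refine (mul_le_mul_of_nonneg_right main (by positivity)).trans ?_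
  rw [mul_right_comm]
  exact mul_le_mul_of_nonneg_right (num_final _ _ _ _ hL0.le hLa0 hLa1 hs0 hs1 hr2) X0

section general
variable {ι : Type*} [Fintype ι] [DecidableEq ι] {p : ℝ}

lemma var_eq (h0 : 0 < p) (h1 : p < 1) (f : (ι → Bool) → ℝ) (hf : ∀ x, f x = 0 ∨ f x = 1) :
    (∑ S : Finset ι, if S = ∅ then 0 else coef p f S ^ 2) = Ex p f * (1 - Ex p f) := by
  have e : Ex p f = ∑ S : Finset ι, coef p f S ^ 2 := by
    rw [← parseval_sq h0 h1]
    exact Ex_congr fun x => by rcases hf x with h | h <;> rw [h] <;> norm_num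
  have e2 : ∑ S : Finset ι, coef p f S ^ 2 = (∑ S : Finset ι, if S = ∅ then 0 else coef p f S ^ 2)
      + ∑ S : Finset ι, if S = ∅ then coef p f S ^ 2 else 0 := by
    rw [← Finset.sum_add_distrib]
    exact Finset.sum_congr rfl fun S _ => by split_ifs <;> simp
  rw [Finset.sum_ite_eq', if_pos (Finset.mem_univ _), coef_empty, ← e] at e2
  linarith

lemma sum_card_mul (c : Finset ι → ℝ) :
    ∑ S : Finset ι, S.card * c S = ∑ i, ∑ S : Finset ι, if Disjoint S {i} then 0 else c S := by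
  rw [Finset.sum_comm]
  refine Finset.sum_congr rfl fun S _ => ?_
  simp only [Finset.disjoint_singleton_right, ite_not]
  rw [Finset.sum_ite_mem, Finset.univ_inter, Finset.sum_const, nsmul_eq_mul]

lemma sig_phi (h0 : 0 < p) (h1 : p < 1) : sig p * (phi p true - phi p false) = 1 := by
  have := sig_pos h0 h1
  simp only [phi, if_true, Bool.false_eq_true, if_false]
  field_simp
  ring

lemma infl_mono (h0 : 0 < p) (h1 : p < 1) (f : (ι → Bool) → ℝ) (hf : ∀ x, f x = 0 ∨ f x = 1)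
    (hm : ∀ x y : ι → Bool, (∀ e, x e = true → y e = true) → f x ≤ f y) (i : ι) :
    (∑ S : Finset ι, if Disjoint S {i} then 0 else coef p f S ^ 2) = sig p * coef p f {i} := by
  have h := Ex_resample h0 h1 {i} f
  have hsp := sig_phi h0 h1
  have pt : ∀ u y : ι → Bool, (f u - f (({i} : Finset ι).piecewise y u)) ^ 2
      = sig p * (f u * phi p (u i)) - sig p * (f u * phi p (y i))
        - sig p * (f (({i} : Finset ι).piecewise y u) * phi p (u i))
        + sig p * (f (({i} : Finset ι).piecewise y u) * phi p (y i)) := by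
    intro u y
    set u' := ({i} : Finset ι).piecewise y u with hu'
    have hi : u' i = y i := Finset.piecewise_eq_of_mem _ _ _ (Finset.mem_singleton_self i)
    have hj : ∀ j, j ≠ i → u' j = u j := fun j hj =>
      Finset.piecewise_eq_of_notMem _ _ _ (by simpa using hj)
    by_cases c : u i = y i
    · have : u' = u := by
        funext j
        by_cases hji : j = i
        · rw [hji, hi, c]
        · exact hj j hji
      rw [this, c]; ring
    · cases hu : u i <;> cases hy : y i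
      · exact absurd (hu.trans hy.symm) c
      · have hle : f u ≤ f u' := hm _ _ fun e he => by
          by_cases hei : e = i
          · rw [hei, hi, hy]
          · rw [hj e hei, he]
        rcases hf u with a | a <;> rcases hf u' with b | b <;> rw [a, b] at hle ⊢ <;>
          linarith
      · have hle : f u' ≤ f u := hm _ _ fun e he => by
          by_cases hei : e = i
          · rw [hei, hu]
          · rw [← hj e hei, he]
        rcases hf u with a | a <;> rcases hf u' with b | b <;> rw [a, b] at hle ⊢ <;>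
          linarith
      · exact absurd (hu.trans hy.symm) c
  simp only [pt, Ex_add, Ex_sub, Ex_mul_left, Ex_const] at h
  have z : Ex p (fun y : ι → Bool => phi p (y i)) = 0 := by
    rw [Ex_single i (phi p)]; exact phi_mean h0 h1
  have c1 : Ex p (fun u => f u * phi p (u i)) = coef p f {i} := by
    simp only [coef, chi, Finset.prod_singleton]
  have c3 : Ex p (fun u => Ex p (fun y => f (({i} : Finset ι).piecewise y u) * phi p (u i)))
      = 0 := by
    rw [Ex_comm, Ex_swap {i}]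
    simp only [pw_pw, Finset.piecewise_eq_of_mem _ _ _ (Finset.mem_singleton_self i),
      Ex_mul_left, z, mul_zero, Ex_const]
  have c4 : Ex p (fun u => Ex p (fun y => f (({i} : Finset ι).piecewise y u) * phi p (y i)))
      = coef p f {i} := by
    rw [Ex_comm, Ex_swap {i}]
    simp only [pw_pw, Finset.piecewise_eq_of_mem _ _ _ (Finset.mem_singleton_self i),
      Ex_const, c1]
  rw [z, c1, c3, c4] at h
  simp only [mul_zero, Ex_const] at h
  linarith

lemma hasDerivAt_Ex (h0 : 0 < p) (h1 : p < 1) (f : (ι → Bool) → ℝ) :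
    HasDerivAt (fun q => Ex q f) ((∑ i, coef p f {i}) / sig p) p := by
  have hs := sig_pos h0 h1
  have hs2 := sig_sq h0 h1
  have d1 : ∀ b : Bool, HasDerivAt (fun q => w1 q b) (w1 p b * (phi p b / sig p)) p := by
    intro b
    have e : ∀ u : ℝ, u / sig p / sig p = u / (p * (1 - p)) := by
      intro u; rw [← hs2]; field_simp
    have h4 : 1 - p ≠ 0 := by linarith
    cases b
    · simp only [w1, phi, Bool.false_eq_true, if_false, e]
      refine ((hasDerivAt_id p).const_sub 1).congr_deriv ?_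
      field_simp
    · simp only [w1, phi, if_true, e]
      refine (hasDerivAt_id p).congr_deriv ?_
      field_simp
  have d2 : ∀ x : ι → Bool, HasDerivAt (fun q => wt q x * f x)
      ((∑ i, wt p x * (f x * phi p (x i))) / sig p) p := by
    intro x
    have := (HasDerivAt.fun_finsetProd (u := Finset.univ) (fun i _ => d1 (x i))).mul_const (f x)
    refine this.congr_deriv ?_
    rw [Finset.sum_div, Finset.sum_mul]
    refine Finset.sum_congr rfl fun i _ => ?_
    rw [wt, ← Finset.prod_erase_mul _ _ (Finset.mem_univ i), smul_eq_mul]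
    ring
  have := HasDerivAt.fun_sum (u := Finset.univ) (fun x _ => d2 x)
  refine this.congr_deriv ?_
  rw [← Finset.sum_div, Finset.sum_comm]
  simp only [coef, Ex, chi, Finset.prod_singleton]

end general

/-- integrating the logistic differential inequality -/
lemma logistic (μ μ' : ℝ → ℝ) (β ε : ℝ) (hβ : 0 < β) (hε0 : 0 < ε) (hε1 : ε < 1 / 2)
    (hd : ∀ q, 0 < q → q < 1 → HasDerivAt μ (μ' q) q)
    (hpos : ∀ q, 0 < q → q < 1 → 0 < μ q ∧ μ q < 1)
    (hineq : ∀ q, 0 < q → q < 1 → β * (μ q * (1 - μ q)) ≤ μ' q)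
    (a b : ℝ) (ha : 0 < a) (hb : b < 1) (hab : a + 4 * Real.log (1 / (2 * ε)) / β ≤ b)
    (hμ : ε ≤ μ a) : 1 - ε ≤ μ b := by
  have hlog : 0 < Real.log (1 / (2 * ε)) :=
    Real.log_pos (by rw [lt_div_iff₀ (by linarith)]; linarith)
  have hδ : 0 < 4 * Real.log (1 / (2 * ε)) / β := by positivity
  have hlt : a < b := by linarith
  set G : ℝ → ℝ := fun q => Real.log (μ q) - Real.log (1 - μ q) with hG
  have dG : ∀ q, 0 < q → q < 1 → HasDerivAt G (μ' q / μ q - (-μ' q) / (1 - μ q)) q := by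
    intro q h0 h1
    obtain ⟨a0, a1⟩ := hpos q h0 h1
    exact ((hd q h0 h1).log a0.ne').sub (((hd q h0 h1).const_sub 1).log (by linarith))
  obtain ⟨c, hc, hslope⟩ := exists_hasDerivAt_eq_slope G
    (fun q => μ' q / μ q - (-μ' q) / (1 - μ q)) hlt
    (fun q hq => (dG q (by linarith [hq.1]) (by linarith [hq.2])).continuousAt.continuousWithinAt)
    (fun q hq => dG q (by linarith [hq.1]) (by linarith [hq.2]))
  have c0 : 0 < c := by linarith [hc.1]
  have c1 : c < 1 := by linarith [hc.2]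
  obtain ⟨m0, m1⟩ := hpos c c0 c1
  have hge : β ≤ μ' c / μ c - (-μ' c) / (1 - μ c) := by
    have m2 : 0 < 1 - μ c := by linarith
    have : μ' c / μ c - (-μ' c) / (1 - μ c) = μ' c / (μ c * (1 - μ c)) := by
      field_simp; ring
    rw [this, le_div_iff₀ (mul_pos m0 m2)]
    exact hineq c c0 c1
  rw [hslope, le_div_iff₀ (by linarith)] at hge
  have h2 : 4 * Real.log (1 / (2 * ε)) ≤ β * (b - a) := by
    have : 4 * Real.log (1 / (2 * ε)) / β ≤ b - a := by linarith
    rwa [div_le_iff₀ hβ, mul_comm (b - a)] at this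
  obtain ⟨a0, a1⟩ := hpos a ha (by linarith)
  obtain ⟨b0, b1⟩ := hpos b (by linarith) hb
  have l1 : Real.log (1 - ε) - Real.log ε ≤ 2 * Real.log (1 / (2 * ε)) := by
    rw [← Real.log_div (by linarith) hε0.ne']
    have : 2 * Real.log (1 / (2 * ε)) = Real.log ((1 / (2 * ε)) ^ 2) := by
      rw [Real.log_pow]; norm_num
    rw [this]
    refine Real.log_le_log (div_pos (by linarith) hε0) ?_
    rw [div_pow, div_le_div_iff₀ hε0 (by positivity)]
    nlinarith [mul_nonneg hε0.le (sq_nonneg (2 * ε - 1))]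
  have g1 : Real.log ε - Real.log (1 - ε) ≤ G a :=
    sub_le_sub (Real.log_le_log hε0 hμ) (Real.log_le_log (by linarith) (by linarith))
  by_contra hcon
  push Not at hcon
  have g2 : G b < Real.log (1 - ε) - Real.log ε :=
    sub_lt_sub (Real.log_lt_log b0 hcon) (Real.log_lt_log hε0 (by linarith))
  linarith

variable {n r : ℕ}

/-- the indicator function -/
noncomputable def ind (P : Set (Edge n r → Bool)) : (Edge n r → Bool) → ℝ := P.indicator 1

lemma ind_bool (P : Set (Edge n r → Bool)) (x : Edge n r → Bool) : ind P x = 0 ∨ ind P x = 1 := by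
  by_cases h : x ∈ P <;> simp [ind, h]

lemma mu_eq (P : Set (Edge n r → Bool)) (p : ℝ) : mu P p = Ex p (ind P) := by
  unfold mu Ex
  refine Finset.sum_congr rfl fun x _ => ?_
  by_cases h : x ∈ P <;> simp [ind, h, wt, w1]

lemma ind_symm {P : Set (Edge n r → Bool)} (hP : IsProperty P) (σ : Equiv.Perm (Fin n))
    (x : Edge n r → Bool) : ind P (fun e => x (permE σ e)) = ind P x := by
  have : (fun e => x (permE σ e)) ∈ P ↔ x ∈ P := by
    refine ⟨fun h => ?_, fun h => hP σ x h⟩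
    have h2 := hP σ.symm _ h
    have e : (fun e => (fun e => x (permE σ e)) (permEdge σ.symm e)) = x := by
      funext e
      exact congrArg x ((permE σ).right_inv e)
    rwa [e] at h2
  by_cases h : x ∈ P
  · simp [ind, h, this.2 h]
  · simp [ind, h, mt this.1 h]

lemma ind_mono {P : Set (Edge n r → Bool)} (hP : IsIncreasing P) (x y : Edge n r → Bool)
    (h : ∀ e, x e = true → y e = true) : ind P x ≤ ind P y := by
  by_cases hx : x ∈ P
  · simp [ind, hx, hP x y h hx]
  · by_cases hy : y ∈ P <;> simp [ind, hx, hy]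

lemma mu_zero {P : Set (Edge n r → Bool)} (hP : IsIncreasing P) (hu : P ≠ Set.univ) :
    mu P 0 = 0 := by
  refine Finset.sum_eq_zero fun x _ => ?_
  by_cases hx : x ∈ P
  · rw [Set.indicator_of_mem hx]
    obtain ⟨e, he⟩ : ∃ e, x e = true := by
      by_contra hc
      exact hu (Set.eq_univ_of_forall fun y => hP x y (fun e he => absurd ⟨e, he⟩ hc) hx)
    exact Finset.prod_eq_zero (Finset.mem_univ e) (by simp [he])
  · exact Set.indicator_of_notMem hx _

lemma mu_one {P : Set (Edge n r → Bool)} (hP : IsIncreasing P) (hne : P.Nonempty) :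
    mu P 1 = 1 := by
  obtain ⟨x0, hx0⟩ := hne
  have htop : (fun _ => true) ∈ P := hP x0 _ (fun _ _ => rfl) hx0
  unfold mu
  rw [Finset.sum_eq_single (fun _ => true)]
  · rw [Set.indicator_of_mem htop]; simp
  · intro x _ hx
    by_cases hxP : x ∈ P
    · rw [Set.indicator_of_mem hxP]
      obtain ⟨e, he⟩ : ∃ e, x e ≠ true := by
        by_contra hc
        push Not at hc
        exact hx (funext hc)
      exact Finset.prod_eq_zero (Finset.mem_univ e) (by simp [he])
    · exact Set.indicator_of_notMem hxP _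
  · simp

lemma mu_pos_lt {P : Set (Edge n r → Bool)} (hne : P.Nonempty) (hu : P ≠ Set.univ) (p : ℝ)
    (h0 : 0 < p) (h1 : p < 1) : 0 < mu P p ∧ mu P p < 1 := by
  rw [mu_eq]
  constructor
  · obtain ⟨x, hx⟩ := hne
    refine Finset.sum_pos' (fun y _ => mul_nonneg (wt_pos h0 h1 y).le ?_) ⟨x, Finset.mem_univ _, ?_⟩
    · rcases ind_bool P y with h | h <;> rw [h] <;> norm_num
    · simpa [ind, hx] using wt_pos h0 h1 x
  · obtain ⟨x, hx⟩ := (Set.ne_univ_iff_exists_notMem P).1 hu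
    rw [← Ex_const (p := p) (ι := Edge n r) 1]
    refine Finset.sum_lt_sum (fun y _ => mul_le_mul_of_nonneg_left ?_ (wt_pos h0 h1 y).le)
      ⟨x, Finset.mem_univ _, ?_⟩
    · rcases ind_bool P y with h | h <;> rw [h] <;> norm_num
    · simpa [ind, hx] using wt_pos h0 h1 x

lemma deriv_ge (hr : 2 ≤ r) (hn : 2 ≤ n) {P : Set (Edge n r → Bool)} (hP : IsProperty P)
    (hI : IsIncreasing P) (p : ℝ) (h0 : 0 < p) (h1 : p < 1) :
    Real.log n ^ ((r : ℝ) / (r - 1)) / (512 * r ^ 2) * (mu P p * (1 - mu P p))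
      ≤ (∑ i, coef p (ind P) {i}) / sig p := by
  have h := spectral_main hr hn h0 h1 (ind P) (ind_bool P) (ind_symm hP)
  rw [var_eq h0 h1 _ (ind_bool P), sum_card_mul, ← mu_eq] at h
  simp only [infl_mono h0 h1 _ (ind_bool P) (ind_mono hI)] at h
  rw [← Finset.mul_sum] at h
  have hs := sig_pos h0 h1
  have hr0 : (0 : ℝ) < r := by exact_mod_cast (by omega : 0 < r)
  rw [div_mul_eq_mul_div, div_le_div_iff₀ (by positivity) hs]
  refine le_of_mul_le_mul_left ?_ hs
  refine le_trans (le_of_eq ?_) (h.trans (le_of_eq ?_)) <;> ring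

theorem width_le (hr : 2 ≤ r) (hn : r ≤ n) {P : Set (Edge n r → Bool)} (hP : IsProperty P)
    (hI : IsIncreasing P) (hne : P.Nonempty) (hu : P ≠ Set.univ) (ε : ℝ) (hε0 : 0 < ε)
    (hε1 : ε < 1 / 2) :
    width P ε ≤ 2048 * r ^ 2 * Real.log (1 / (2 * ε)) * Real.log n ^ (-((r : ℝ) / (r - 1))) := by
  have hn2 : 2 ≤ n := hr.trans hn
  have hL0 : 0 < Real.log n := Real.log_pos (by exact_mod_cast (by omega : 1 < n))
  have hr0 : (0 : ℝ) < r := by exact_mod_cast (by omega : 0 < r)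
  have hLa : 0 < Real.log n ^ ((r : ℝ) / (r - 1)) := Real.rpow_pos_of_pos hL0 _
  set β := Real.log n ^ ((r : ℝ) / (r - 1)) / (512 * r ^ 2) with hβ
  have hβ0 : 0 < β := by positivity
  have e : 2048 * r ^ 2 * Real.log (1 / (2 * ε)) * Real.log n ^ (-((r : ℝ) / (r - 1)))
      = 4 * Real.log (1 / (2 * ε)) / β := by
    rw [Real.rpow_neg hL0.le, hβ]; field_simp; ring
  rw [e]
  have bdd : BddBelow {p : ℝ | p ∈ Set.Icc (0 : ℝ) 1 ∧ 1 - ε ≤ mu P p} :=
    ⟨0, fun p hp => hp.1.1⟩
  have hlog : 0 < Real.log (1 / (2 * ε)) :=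
    Real.log_pos (by rw [lt_div_iff₀ (by linarith)]; linarith)
  have hδ : 0 < 4 * Real.log (1 / (2 * ε)) / β := by positivity
  unfold width
  rw [sub_le_comm]
  refine le_csInf ⟨1, ⟨zero_le_one, le_rfl⟩, by rw [mu_one hI hne]; linarith⟩ ?_
  rintro a ⟨⟨a0, a1⟩, ha⟩
  have a0' : 0 < a := by
    rcases a0.eq_or_lt with h | h
    · rw [← h, mu_zero hI hu] at ha; linarith
    · exact h
  rw [sub_le_iff_le_add]
  by_cases hb : a + 4 * Real.log (1 / (2 * ε)) / β < 1
  · refine csInf_le bdd ⟨⟨by linarith, hb.le⟩, ?_⟩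
    refine logistic (mu P) (fun p => (∑ i, coef p (ind P) {i}) / sig p) β ε hβ0 hε0 hε1 ?_
      (mu_pos_lt hne hu) (deriv_ge hr hn2 hP hI) a _ a0' hb le_rfl ha
    intro q q0 q1
    have : mu P = fun q => Ex q (ind P) := funext (mu_eq P)
    rw [this]
    exact hasDerivAt_Ex q0 q1 _
  · push Not at hb
    refine le_trans (csInf_le bdd ⟨⟨zero_le_one, le_rfl⟩, ?_⟩) hb
    rw [mu_one hI hne]; linarith

end Vale.Agent.P063
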