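import Vale.Agent.P063.Defs
import Vale.Agent.P063.Hyper

/-! The spectral inequality for hypergraph properties. -/

namespace Vale.Agent.P063

open Finset

variable {n r : ℕ} {p : ℝ}

/-- `permEdge` as a permutation -/
def permE (σ : Equiv.Perm (Fin n)) : Equiv.Perm (Edge n r) where
  toFun := permEdge σ
  invFun := permEdge σ.symm
  left_inv e := by
    apply Subtype.ext
    simp [permEdge, Finset.map_map]
  right_inv e := by
    apply Subtype.ext
    simp [permEdge, Finset.map_map]

lemma mem_permE (σ : Equiv.Perm (Fin n)) (e : Edge n r) (v : Fin n) :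
    v ∈ (permE σ e).1 ↔ σ.symm v ∈ e.1 := by
  change v ∈ e.1.map σ.toEmbedding ↔ _
  rw [Finset.mem_map_equiv]

/-- edges that miss `A` -/
def Zc (r : ℕ) (A : Finset (Fin n)) : Finset (Edge n r) :=
  Finset.univ.filter (fun e => ∀ u ∈ A, u ∉ e.1)

/-- edges that meet `A` exactly in `v` -/
def Jst (r : ℕ) (A : Finset (Fin n)) (v : Fin n) : Finset (Edge n r) :=
  Finset.univ.filter (fun e => v ∈ e.1 ∧ ∀ u ∈ A, u ∈ e.1 → u = v)

/-- vertices covered by an edge set -/
def vs (S : Finset (Edge n r)) : Finset (Fin n) := S.biUnion (fun e => e.1)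

/-- degree -/
def dg (S : Finset (Edge n r)) (v : Fin n) : ℕ := (S.filter (fun e => v ∈ e.1)).card

lemma vr_le (h0 : 0 < p) (h1 : p < 1) (f : (Edge n r → Bool) → ℝ) (hf : ∀ x, f x = 0 ∨ f x = 1)
    (hs : ∀ σ x, f (fun e => x (permE σ e)) = f x) (A : Finset (Fin n)) (v : Fin n) (hv : v ∈ A)
    (x : Edge n r → Bool) :
    (A.card : ℝ) * vr p (Jst r A v) (restr (Zc r A) f x) ≤ 1 := by
  have h := sum_vr_le h0 h1 A (Jst r A) (fun u hu w hw huw => ?_) (restr (Zc r A) f x)
    (fun y => hf _)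
  · refine le_trans (le_of_eq ?_) h
    rw [← nsmul_eq_mul, ← Finset.sum_const]
    refine Finset.sum_congr rfl fun u hu => ?_
    symm
    refine vr_map f (permE (Equiv.swap u v)) (hs _) _ ?_ x _ _ ?_
    · intro e he
      simp only [Zc, Finset.mem_filter, Finset.mem_univ, true_and] at he
      apply Subtype.ext
      ext w
      rw [mem_permE, Equiv.symm_swap]
      by_cases h1 : w = u
      · subst h1
        simp [he _ hu, he _ hv]
      · by_cases h2 : w = v
        · subst h2
          simp [he _ hu, he _ hv]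
        · rw [Equiv.swap_apply_of_ne_of_ne h1 h2]
    · intro e
      simp only [Jst, Finset.mem_filter, Finset.mem_univ, true_and, mem_permE, Equiv.symm_swap,
        Equiv.swap_apply_left]
      refine and_congr_right fun _ => ⟨fun h w hw hwe => ?_, fun h w hw hwe => ?_⟩
      · have hw' : Equiv.swap u v w ∈ A := by
          rw [Equiv.swap_apply_def]; split_ifs <;> assumption
        have := h _ hw' (by rwa [Equiv.swap_apply_self])
        rw [Equiv.swap_apply_eq_iff, Equiv.swap_apply_left] at this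
        exact this
      · have hw' : Equiv.swap u v w ∈ A := by
          rw [Equiv.swap_apply_def]; split_ifs <;> assumption
        have := h _ hw' hwe
        rw [Equiv.swap_apply_eq_iff, Equiv.swap_apply_right] at this
        exact this
  · rw [Finset.disjoint_left]
    intro e he he'
    simp only [Jst, Finset.mem_filter, Finset.mem_univ, true_and] at he he'
    exact huw (he'.2 u hu he.1)

lemma block_bound (h0 : 0 < p) (h1 : p < 1) (f : (Edge n r → Bool) → ℝ)
    (hf : ∀ x, f x = 0 ∨ f x = 1) (hs : ∀ σ x, f (fun e => x (permE σ e)) = f x)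
    (B : Finset (Fin n)) (v : Fin n) (K η : ℝ) (hK0 : 0 ≤ K) (hη : 0 ≤ η)
    (hB : 1 ≤ η ^ 2 * B.card) :
    (∑ S : Finset (Edge n r), if v ∈ vs S ∧ kap p ^ dg S v ≤ K ∧ Disjoint B (vs S)
        then coef p f S ^ 2 else 0)
      ≤ 2 * K * η * ∑ S : Finset (Edge n r), if v ∈ vs S then coef p f S ^ 2 else 0 := by
  set A := insert v B with hA
  have hv : v ∈ A := Finset.mem_insert_self _ _
  have hcard : (B.card : ℝ) ≤ A.card := by
    exact_mod_cast Finset.card_le_card (Finset.subset_insert _ _)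
  have hdis : Disjoint (Jst r A v) (Zc r A) := by
    rw [Finset.disjoint_left]
    intro e he he'
    simp only [Jst, Zc, Finset.mem_filter, Finset.mem_univ, true_and] at he he'
    exact he' v hv he.1
  have hvr : ∀ x, vr p (Jst r A v) (restr (Zc r A) f x) ≤ η ^ 2 := by
    intro x
    have h := vr_le h0 h1 f hf hs A v hv x
    have hp : 0 ≤ vr p (Jst r A v) (restr (Zc r A) f x) :=
      Finset.sum_nonneg fun T _ => sq_nonneg _
    have h2 : 1 ≤ η ^ 2 * A.card := hB.trans (mul_le_mul_of_nonneg_left hcard (sq_nonneg _))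
    calc vr p (Jst r A v) (restr (Zc r A) f x)
        ≤ (η ^ 2 * A.card) * vr p (Jst r A v) (restr (Zc r A) f x) := le_mul_of_one_le_left hp h2
      _ = η ^ 2 * (A.card * vr p (Jst r A v) (restr (Zc r A) f x)) := by ring
      _ ≤ η ^ 2 * 1 := mul_le_mul_of_nonneg_left h (sq_nonneg _)
      _ = η ^ 2 := mul_one _
  have h := core h0 h1 f hf (Zc r A) (Jst r A v) hdis K η hK0 hη hvr
  refine le_trans (Finset.sum_le_sum fun S _ => ?_) (h.trans ?_)
  · split_ifs with c1 c2
    · exact le_rfl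
    · exfalso
      apply c2
      obtain ⟨c1, c2, c3⟩ := c1
      have e : S \ Zc r A = S.filter (fun e => v ∈ e.1) := by
        ext e
        simp only [Zc, Finset.mem_sdiff, Finset.mem_filter, Finset.mem_univ, true_and]
        refine and_congr_right fun he => ⟨fun h => ?_, fun h h' => h' v hv h⟩
        push Not at h
        obtain ⟨u, hu, hue⟩ := h
        rcases Finset.mem_insert.1 hu with rfl | hu
        · exact hue
        · exact absurd (Finset.mem_biUnion.2 ⟨e, he, hue⟩) (Finset.disjoint_left.1 c3 hu)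
      rw [e]
      refine ⟨fun e he => ?_, ?_, c2⟩
      · simp only [Jst, Finset.mem_filter, Finset.mem_univ, true_and] at he ⊢
        refine ⟨he.2, fun u hu hue => ?_⟩
        rcases Finset.mem_insert.1 hu with rfl | hu
        · rfl
        · exact absurd (Finset.mem_biUnion.2 ⟨e, he.1, hue⟩) (Finset.disjoint_left.1 c3 hu)
      · obtain ⟨e, he, hve⟩ := Finset.mem_biUnion.1 c1
        exact Finset.ne_empty_of_mem (Finset.mem_filter.2 ⟨he, hve⟩)
    · exact sq_nonneg _
    · exact le_rfl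
  · rw [show K * η * (2 * ∑ S : Finset (Edge n r),
        if Disjoint S (Jst r A v) then 0 else coef p f S ^ 2) = 2 * K * η *
        ∑ S : Finset (Edge n r), if Disjoint S (Jst r A v) then 0 else coef p f S ^ 2 by ring]
    refine mul_le_mul_of_nonneg_left (Finset.sum_le_sum fun S _ => ?_) (by positivity)
    split_ifs with c1 c2 c3
    · exact sq_nonneg _
    · exact le_rfl
    · exact le_rfl
    · exfalso
      apply c3
      obtain ⟨e, he, he'⟩ := Finset.not_disjoint_iff.1 c1
      simp only [Jst, Finset.mem_filter, Finset.mem_univ, true_and] at he'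
      exact Finset.mem_biUnion.2 ⟨e, he, he'.1⟩

lemma card_vs_le (S : Finset (Edge n r)) : (vs S).card ≤ r * S.card := by
  refine Finset.card_biUnion_le.trans (le_of_eq ?_)
  rw [Finset.sum_congr rfl fun e _ => e.2, Finset.sum_const, smul_eq_mul, mul_comm]

lemma card_le_pow (S : Finset (Edge n r)) : S.card ≤ (vs S).card ^ r := by
  refine le_trans ?_ (Nat.choose_le_pow _ _)
  rw [← Finset.card_powersetCard]
  refine Finset.card_le_card_of_injOn (fun e => e.1) (fun e he => ?_)
    (fun a _ b _ h => Subtype.ext h)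
  simp only [Finset.mem_coe, Finset.mem_powersetCard]
  exact ⟨Finset.subset_biUnion_of_mem (fun e : Edge n r => e.1) he, e.2⟩

lemma sum_dg (S : Finset (Edge n r)) : ∑ v ∈ vs S, dg S v = r * S.card := by
  unfold dg
  simp only [Finset.card_filter]
  rw [Finset.sum_comm, mul_comm, ← smul_eq_mul, ← Finset.sum_const]
  refine Finset.sum_congr rfl fun e he => ?_
  have hsub : e.1 ⊆ vs S := Finset.subset_biUnion_of_mem (fun e : Edge n r => e.1) he
  rw [← Finset.card_filter, Finset.filter_mem_eq_inter, Finset.inter_eq_right.2 hsub, e.2]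

/-- a small edge set has a vertex of small degree -/
lemma exists_small_dg (hr : 1 ≤ r) (S : Finset (Edge n r)) (hS : S ≠ ∅) :
    ∃ v ∈ vs S, dg S v ^ r ≤ r ^ r * S.card ^ (r - 1) := by
  obtain ⟨e, he⟩ := Finset.nonempty_iff_ne_empty.2 hS
  have hne : (vs S).Nonempty := by
    obtain ⟨v, hv⟩ : e.1.Nonempty := Finset.card_pos.1 (by rw [e.2]; exact hr)
    exact ⟨v, Finset.mem_biUnion.2 ⟨e, he, hv⟩⟩
  obtain ⟨v, hv, hmin⟩ := Finset.exists_min_image (vs S) (dg S) hne
  refine ⟨v, hv, ?_⟩
  have h1 : (vs S).card * dg S v ≤ r * S.card := by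
    rw [← sum_dg, ← smul_eq_mul]
    exact Finset.card_nsmul_le_sum _ _ _ hmin
  have h2 := card_le_pow S
  have hpos : 0 < S.card := Finset.card_pos.2 ⟨e, he⟩
  refine Nat.le_of_mul_le_mul_right ?_ hpos
  calc dg S v ^ r * S.card ≤ dg S v ^ r * (vs S).card ^ r := Nat.mul_le_mul_left _ h2
    _ = ((vs S).card * dg S v) ^ r := by rw [mul_pow, mul_comm]
    _ ≤ (r * S.card) ^ r := Nat.pow_le_pow_left h1 _
    _ = r ^ r * S.card ^ (r - 1) * S.card := by
      rw [mul_pow, mul_assoc, ← pow_succ, Nat.sub_add_cancel hr]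

lemma exists_blocks (M : ℕ) (hM : M * M ≤ n) : ∃ B : Fin M → Finset (Fin n),
    (∀ j, (B j).card = M) ∧ ∀ V : Finset (Fin n),
      M ≤ (Finset.univ.filter (fun j => Disjoint (B j) V)).card + V.card := by
  obtain ⟨e⟩ : Nonempty (Fin M × Fin M ↪ Fin n) :=
    Function.Embedding.nonempty_of_card_le (by simpa using hM)
  refine ⟨fun j => Finset.univ.image (fun i => e (j, i)), fun j => ?_, fun V => ?_⟩
  · rw [Finset.card_image_of_injective _ (fun a b h => by simpa using e.injective h)]
    simp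
  · have h := Finset.card_filter_add_card_filter_not (s := (Finset.univ : Finset (Fin M)))
      (fun j => Disjoint (Finset.univ.image (fun i => e (j, i))) V)
    rw [Finset.card_univ, Fintype.card_fin] at h
    conv_lhs => rw [← h]
    refine Nat.add_le_add_left ?_ _
    have h2 : (Finset.univ.filter (fun z : Fin M × Fin M => e z ∈ V)).card ≤ V.card :=
      Finset.card_le_card_of_injOn e (fun z hz => by simpa using hz) (fun a _ b _ h => e.injective h)
    refine le_trans ?_ (Finset.card_image_le (f := Prod.fst) |>.trans h2)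
    refine Finset.card_le_card fun j hj => ?_
    simp only [Finset.mem_filter, Finset.mem_univ, true_and] at hj
    obtain ⟨u, hu, huV⟩ := Finset.not_disjoint_iff.1 hj
    obtain ⟨i, _, rfl⟩ := Finset.mem_image.1 hu
    exact Finset.mem_image.2 ⟨(j, i), by simpa using huV, rfl⟩

/-- counting weight -/
noncomputable def cnt (p K : ℝ) {M : ℕ} (B : Fin M → Finset (Fin n)) (S : Finset (Edge n r)) : ℝ :=
  ∑ v : Fin n, ∑ j : Fin M,
    if v ∈ vs S ∧ kap p ^ dg S v ≤ K ∧ Disjoint (B j) (vs S) then 1 else 0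

lemma cnt_nonneg (K : ℝ) {M : ℕ} (B : Fin M → Finset (Fin n)) (S : Finset (Edge n r)) :
    0 ≤ cnt p K B S :=
  Finset.sum_nonneg fun v _ => Finset.sum_nonneg fun j _ => by split_ifs <;> norm_num

lemma cnt_ge (K : ℝ) {M : ℕ} (B : Fin M → Finset (Fin n)) (S : Finset (Edge n r))
    (v : Fin n) (hv : v ∈ vs S) (hvK : kap p ^ dg S v ≤ K) :
    ((Finset.univ.filter (fun j => Disjoint (B j) (vs S))).card : ℝ) ≤ cnt p K B S := by
  refine le_trans ?_ (Finset.single_le_sum (f := fun v : Fin n => ∑ j : Fin M,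
      if v ∈ vs S ∧ kap p ^ dg S v ≤ K ∧ Disjoint (B j) (vs S) then (1 : ℝ) else 0)
      (fun v _ => Finset.sum_nonneg fun j _ => by split_ifs <;> norm_num) (Finset.mem_univ v))
  simp only [hv, hvK, true_and, Finset.sum_boole, le_refl]

lemma sum_vs_le (c : Finset (Edge n r) → ℝ) (hc : ∀ S, 0 ≤ c S) :
    (∑ v : Fin n, ∑ S : Finset (Edge n r), if v ∈ vs S then c S else 0)
      ≤ r * ∑ S : Finset (Edge n r), S.card * c S := by
  rw [Finset.sum_comm, Finset.mul_sum]
  refine Finset.sum_le_sum fun S _ => ?_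
  rw [Finset.sum_ite_mem, Finset.univ_inter, Finset.sum_const, nsmul_eq_mul, ← mul_assoc]
  exact mul_le_mul_of_nonneg_right (by exact_mod_cast card_vs_le S) (hc S)

lemma sum_cnt_eq (K : ℝ) {M : ℕ} (B : Fin M → Finset (Fin n)) (c : Finset (Edge n r) → ℝ) :
    ∑ S : Finset (Edge n r), cnt p K B S * c S
      = ∑ v : Fin n, ∑ j : Fin M, ∑ S : Finset (Edge n r),
          if v ∈ vs S ∧ kap p ^ dg S v ≤ K ∧ Disjoint (B j) (vs S) then c S else 0 := by
  simp only [cnt, Finset.sum_mul, ite_mul, one_mul, zero_mul]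
  rw [Finset.sum_comm]
  exact Finset.sum_congr rfl fun v _ => Finset.sum_comm

lemma sum_cnt_le (h0 : 0 < p) (h1 : p < 1) (f : (Edge n r → Bool) → ℝ)
    (hf : ∀ x, f x = 0 ∨ f x = 1) (hs : ∀ σ x, f (fun e => x (permE σ e)) = f x)
    (K η : ℝ) (hK0 : 0 ≤ K) (hη : 0 ≤ η) {M : ℕ} (B : Fin M → Finset (Fin n))
    (hB : ∀ j, 1 ≤ η ^ 2 * (B j).card) :
    ∑ S : Finset (Edge n r), cnt p K B S * coef p f S ^ 2
      ≤ M * (2 * K * η) * (r * ∑ S : Finset (Edge n r), S.card * coef p f S ^ 2) := by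
  rw [sum_cnt_eq K B (fun S => coef p f S ^ 2)]
  have h := sum_vs_le (fun S => coef p f S ^ 2) (fun S => sq_nonneg _)
  refine le_trans ?_ (mul_le_mul_of_nonneg_left h (by positivity))
  rw [Finset.mul_sum]
  refine Finset.sum_le_sum fun v _ => ?_
  refine (Finset.sum_le_sum fun j _ => block_bound h0 h1 f hf hs (B j) v K η hK0 hη (hB j)).trans
    (le_of_eq ?_)
  rw [Finset.sum_const, Finset.card_univ, Fintype.card_fin, nsmul_eq_mul, mul_assoc (M : ℝ)]

lemma pt_bound (c N s M D : ℝ) (hc : 0 ≤ c) (hN : 0 ≤ N) (hs : 0 ≤ s) (hM : 0 < M) (hD : 0 < D)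
    (h : s ≤ D → M / 2 ≤ N) : c ≤ 2 / M * (N * c) + 1 / D * (s * c) := by
  have t1 : 0 ≤ 2 / M * (N * c) := by positivity
  have t2 : 0 ≤ 1 / D * (s * c) := by positivity
  by_cases hSD : s ≤ D
  · have := mul_le_mul_of_nonneg_right (h hSD) hc
    have e : c = 2 / M * (M / 2 * c) := by field_simp
    have : 2 / M * (M / 2 * c) ≤ 2 / M * (N * c) :=
      mul_le_mul_of_nonneg_left this (by positivity)
    linarith
  · push Not at hSD
    have := mul_le_mul_of_nonneg_right hSD.le hc
    have e : c = 1 / D * (D * c) := by field_simp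
    have : 1 / D * (D * c) ≤ 1 / D * (s * c) :=
      mul_le_mul_of_nonneg_left this (by positivity)
    linarith

/-- the spectral inequality with free parameters -/
lemma spectral (h0 : 0 < p) (h1 : p < 1) (f : (Edge n r → Bool) → ℝ)
    (hf : ∀ x, f x = 0 ∨ f x = 1) (hs : ∀ σ x, f (fun e => x (permE σ e)) = f x)
    (M : ℕ) (hM0 : 0 < M) (hM : M * M ≤ n) (K η D : ℝ) (hK0 : 0 ≤ K) (hη : 0 ≤ η) (hD : 0 < D)
    (hB : 1 ≤ η ^ 2 * M) (hDM : 2 * r * D ≤ M)
    (hK : ∀ S : Finset (Edge n r), S ≠ ∅ → (S.card : ℝ) ≤ D → ∃ v ∈ vs S, kap p ^ dg S v ≤ K) :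
    (∑ S : Finset (Edge n r), if S = ∅ then 0 else coef p f S ^ 2)
      ≤ (4 * K * η * r + 1 / D) * ∑ S : Finset (Edge n r), S.card * coef p f S ^ 2 := by
  obtain ⟨B, hBc, hBV⟩ := exists_blocks M hM
  have hMr : (0 : ℝ) < M := by exact_mod_cast hM0
  have hN1 : ∀ S : Finset (Edge n r), S ≠ ∅ → (S.card : ℝ) ≤ D → (M : ℝ) / 2 ≤ cnt p K B S := by
    intro S hS hSD
    obtain ⟨v, hv, hvK⟩ := hK S hS hSD
    have a0 := cnt_ge K B S v hv hvK
    have a1 : (M : ℝ) ≤ (Finset.univ.filter (fun j => Disjoint (B j) (vs S))).card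
        + (vs S).card := by exact_mod_cast hBV (vs S)
    have a2 : ((vs S).card : ℝ) ≤ r * S.card := by exact_mod_cast card_vs_le S
    have a3 : (r : ℝ) * S.card ≤ r * D := mul_le_mul_of_nonneg_left hSD (Nat.cast_nonneg _)
    linarith
  have hN2 := sum_cnt_le h0 h1 f hf hs K η hK0 hη B (fun j => by rw [hBc]; exact hB)
  have pt : ∀ S : Finset (Edge n r), (if S = ∅ then 0 else coef p f S ^ 2)
      ≤ 2 / M * (cnt p K B S * coef p f S ^ 2) + 1 / D * (S.card * coef p f S ^ 2) := by
    intro S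
    have := cnt_nonneg (p := p) K B S
    split_ifs with hS
    · positivity
    · exact pt_bound _ _ _ _ _ (sq_nonneg _) this (Nat.cast_nonneg _) hMr hD (hN1 S hS)
  refine (Finset.sum_le_sum fun S _ => pt S).trans ?_
  rw [Finset.sum_add_distrib, ← Finset.mul_sum, ← Finset.mul_sum, add_mul]
  refine add_le_add ?_ le_rfl
  refine (mul_le_mul_of_nonneg_left hN2 (by positivity)).trans (le_of_eq ?_)
  generalize (∑ S : Finset (Edge n r), S.card * coef p f S ^ 2) = X
  field_simp
  ring

end Vale.Agent.P063
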